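import Mathlib

namespace Vale.Agent.P317

open Set

variable {α : Type*}

/-- Sets obtained from `B` by at most `t` single-element replacements. -/
def ball : ℕ → Set α → Set (Set α)
  | 0, B => {B}
  | t + 1, B => ball t B ∪ {S | ∃ S₁ ∈ ball t B, ∃ x y, S = insert x (S₁ \ {y})}

lemma ball_succ_subset (t : ℕ) (B : Set α) : ball t B ⊆ ball (t + 1) B := by
  intro S hS
  exact Or.inl hS

lemma ball_mono {s t : ℕ} (h : s ≤ t) (B : Set α) : ball s B ⊆ ball t B := by
  induction h with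
  | refl => exact subset_rfl
  | step _ ih => exact ih.trans (ball_succ_subset _ _)

lemma self_mem_ball (t : ℕ) (B : Set α) : B ∈ ball t B :=
  ball_mono (Nat.zero_le t) B rfl

lemma ball_trans {s t : ℕ} {B B₁ B' : Set α} (h₁ : B ∈ ball s B₁) (h₂ : B₁ ∈ ball t B') :
    B ∈ ball (s + t) B' := by
  induction s generalizing B with
  | zero =>
    have : B = B₁ := h₁
    subst this
    simpa using h₂
  | succ s ih =>
    have hst : s + 1 + t = (s + t) + 1 := by omega
    rw [hst]
    rcases h₁ with h₁ | ⟨S₁, hS₁, x, y, rfl⟩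
    · exact ball_succ_subset _ _ (ih h₁)
    · exact Or.inr ⟨S₁, ih hS₁, x, y, rfl⟩

lemma ball_ncard_le [Fintype α] (t : ℕ) (B : Set α) :
    (ball t B).ncard ≤ (Fintype.card α ^ 2 + 1) ^ t := by
  induction t with
  | zero => simp [ball]
  | succ t ih =>
    have hfin : ∀ A : Set (Set α), A.Finite := fun A => A.toFinite
    have himg : {S | ∃ S₁ ∈ ball t B, ∃ x y, S = insert x (S₁ \ {y})} ⊆
        (fun p : Set α × (α × α) => insert p.2.1 (p.1 \ {p.2.2})) ''
          (ball t B ×ˢ (univ : Set (α × α))) := by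
      rintro S ⟨S₁, hS₁, x, y, rfl⟩
      exact ⟨(S₁, (x, y)), ⟨hS₁, mem_univ _⟩, rfl⟩
    have h1 : ({S | ∃ S₁ ∈ ball t B, ∃ x y, S = insert x (S₁ \ {y})} : Set (Set α)).ncard ≤
        (ball t B).ncard * Fintype.card α ^ 2 := by
      calc _ ≤ ((fun p : Set α × (α × α) => insert p.2.1 (p.1 \ {p.2.2})) ''
          (ball t B ×ˢ (univ : Set (α × α)))).ncard := ncard_le_ncard himg (hfin _)
        _ ≤ (ball t B ×ˢ (univ : Set (α × α))).ncard := ncard_image_le (Set.toFinite _)
        _ = (ball t B).ncard * Fintype.card α ^ 2 := by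
          rw [ncard_prod, ncard_univ, Nat.card_eq_fintype_card, Fintype.card_prod, sq]
    calc (ball (t + 1) B).ncard
        ≤ (ball t B).ncard + ({S | ∃ S₁ ∈ ball t B, ∃ x y, S = insert x (S₁ \ {y})} :
            Set (Set α)).ncard := ncard_union_le _ _
      _ ≤ (ball t B).ncard + (ball t B).ncard * Fintype.card α ^ 2 := by omega
      _ = (ball t B).ncard * (Fintype.card α ^ 2 + 1) := by ring
      _ ≤ (Fintype.card α ^ 2 + 1) ^ t * (Fintype.card α ^ 2 + 1) :=
          Nat.mul_le_mul_right _ ih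
      _ = (Fintype.card α ^ 2 + 1) ^ (t + 1) := by ring

/-- Exchange towards a second base: an element of `Bs \ B` can be brought into `B`
at the price of an element of `B \ Bs`. -/
lemma exchange_towards {M : Matroid α} {B Bs : Set α} (hB : M.IsBase B) (hBs : M.IsBase Bs)
    {y : α} (hy : y ∈ Bs \ B) : ∃ x ∈ B \ Bs, M.IsBase (insert y (B \ {x})) := by
  have hI : M.Indep (insert y (B ∩ Bs)) :=
    hBs.indep.subset (insert_subset hy.1 inter_subset_right)
  obtain ⟨B', hB', hIB', hB'sub⟩ := hI.exists_isBase_subset_union_isBase hB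
  have hyB' : y ∈ B' := hIB' (mem_insert _ _)
  have hsub : B' ⊆ insert y B := by
    intro z hz
    rcases hB'sub hz with h | h
    · rcases h with rfl | h
      · exact mem_insert _ _
      · exact mem_insert_of_mem _ h.1
    · exact mem_insert_of_mem _ h
  have hnot : ¬ B ⊆ B' := by
    intro h
    have := hB.eq_of_subset_isBase hB' h
    exact hy.2 (this ▸ hyB')
  obtain ⟨x, hxB, hxB'⟩ := not_subset.1 hnot
  have hxBs : x ∉ Bs := fun h => hxB' (hIB' (mem_insert_of_mem _ ⟨hxB, h⟩))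
  refine ⟨x, ⟨hxB, hxBs⟩, ?_⟩
  have hdiff : B' \ B = {y} := by
    ext z
    constructor
    · rintro ⟨hz, hzB⟩
      rcases hsub hz with rfl | h
      · rfl
      · exact absurd h hzB
    · rintro rfl
      exact ⟨hyB', hy.2⟩
  have hcard : (B \ B').encard = 1 := by
    rw [hB.encard_sdiff_comm hB', hdiff, encard_singleton]
  obtain ⟨a, ha⟩ := encard_eq_one.1 hcard
  have hxa : x = a := by
    have : x ∈ B \ B' := ⟨hxB, hxB'⟩
    rw [ha] at this
    exact this
  subst hxa
  have hEq : B' = insert y (B \ {x}) := by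
    ext z
    constructor
    · intro hz
      rcases hsub hz with rfl | h
      · exact mem_insert _ _
      · refine mem_insert_of_mem _ ⟨h, ?_⟩
        rintro rfl
        exact hxB' hz
    · rintro (rfl | ⟨hzB, hzx⟩)
      · exact hyB'
      · by_contra hz
        have : z ∈ B \ B' := ⟨hzB, hz⟩
        rw [ha] at this
        exact hzx this
  exact hEq ▸ hB'


/-- The common step: an `M₂`-base that is `M₁`-dependent can be moved one exchange towards the
common base `Bs` by an element outside the `M₁`-closure of `B`. -/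
lemma exists_step [Finite α] {M₁ M₂ : Matroid α} {Bs : Set α} (hBs₁ : M₁.IsBase Bs)
    (hBs₂ : M₂.IsBase Bs) {B : Set α} (hB : M₂.IsBase B) (hdep : M₁.Dep B) :
    ∃ x y, x ∈ B \ Bs ∧ y ∈ Bs \ B ∧ M₂.IsBase (insert y (B \ {x})) ∧ y ∉ M₁.closure B := by
  have hlt : M₁.eRk B < M₁.eRk Bs := by
    calc M₁.eRk B < B.encard := Matroid.eRk_lt_encard_of_dep_of_finite (Set.toFinite B) hdep
      _ = Bs.encard := hB.encard_eq_encard_of_isBase hBs₂
      _ = M₁.eRk Bs := (hBs₁.indep.eRk_eq_encard).symm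
  have hnot : ¬ Bs ⊆ M₁.closure B := by
    intro h
    have := M₁.eRk_mono h
    rw [M₁.eRk_closure_eq] at this
    exact absurd hlt (not_lt.2 this)
  obtain ⟨y, hyBs, hycl⟩ := not_subset.1 hnot
  have hyB : y ∉ B := fun h => hycl (M₁.subset_closure B hdep.subset_ground h)
  obtain ⟨x, hx, hxB⟩ := exchange_towards hB hBs₂ ⟨hyBs, hyB⟩
  exact ⟨x, y, hx, ⟨hyBs, hyB⟩, hxB, hycl⟩

lemma mem_ball_one_of_exchange {B : Set α} {x y : α} (hx : x ∈ B) (hy : y ∉ B) :
    B ∈ ball 1 (insert y (B \ {x})) := by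
  refine Or.inr ⟨insert y (B \ {x}), rfl, x, y, ?_⟩
  ext z
  simp only [mem_insert_iff, mem_sdiff, mem_singleton_iff]
  constructor
  · intro hz
    by_cases hzx : z = x
    · exact Or.inl hzx
    · refine Or.inr ⟨Or.inr ⟨hz, hzx⟩, ?_⟩
      rintro rfl
      exact hy hz
  · rintro (rfl | ⟨rfl | ⟨hz, -⟩, hzy⟩)
    · exact hx
    · exact absurd rfl hzy
    · exact hz

lemma isBase_of_indep [Finite α] {M₁ M₂ : Matroid α} {Bs : Set α} (hBs₁ : M₁.IsBase Bs)
    (hBs₂ : M₂.IsBase Bs) {B : Set α} (hB : M₂.IsBase B) (hind : M₁.Indep B) :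
    M₁.IsBase B := by
  refine hind.isBase_of_eRk_ge (Set.toFinite B) ?_
  rw [← hBs₁.encard_eq_eRank, hind.eRk_eq_encard, hB.encard_eq_encard_of_isBase hBs₂]

/-- Walking towards `Bs`: the elements brought in stay outside every `M₁`-circuit, so after `c`
exchanges no `M₁`-circuit is left. -/
lemma reach [Finite α] {M₁ M₂ : Matroid α} (hE₁ : M₁.E = univ) {Bs : Set α}
    (hBs₁ : M₁.IsBase Bs) (hBs₂ : M₂.IsBase Bs) (c : ℕ)
    (hc : ∀ S : Set α, M₂.Indep S → S.ncard + c ≤ Bs.ncard → M₁.Indep S) (j : ℕ) :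
    ∀ {B Y : Set α}, M₂.IsBase B → Y ⊆ B → Y ⊆ Bs →
      (∀ C, M₁.IsCircuit C → C ⊆ B → Disjoint C Y) → c ≤ Y.ncard + j →
      ∃ B', M₁.IsBase B' ∧ M₂.IsBase B' ∧ B ∈ ball j B' := by
  induction j with
  | zero =>
    intro B Y hB hYB _ hcirc hcard
    refine ⟨B, isBase_of_indep hBs₁ hBs₂ hB ?_, hB, self_mem_ball _ _⟩
    by_contra hind
    have hdep : M₁.Dep B := ⟨hind, hE₁ ▸ subset_univ B⟩
    obtain ⟨C, hCB, hC⟩ := hdep.exists_isCircuit_subset
    have hdisj := hcirc C hC hCB
    have hunion : (C ∪ Y).ncard = C.ncard + Y.ncard :=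
      ncard_union_eq hdisj (Set.toFinite _) (Set.toFinite _)
    have hle : (C ∪ Y).ncard ≤ B.ncard :=
      ncard_le_ncard (union_subset hCB hYB) (Set.toFinite _)
    have hBcard : B.ncard = Bs.ncard := hB.ncard_eq_ncard_of_isBase hBs₂
    exact hC.not_indep (hc C (hB.indep.subset hCB) (by omega))
  | succ j ih =>
    intro B Y hB hYB hYBs hcirc hcard
    by_cases hind : M₁.Indep B
    · exact ⟨B, isBase_of_indep hBs₁ hBs₂ hB hind, hB, self_mem_ball _ _⟩
    · have hdep : M₁.Dep B := ⟨hind, hE₁ ▸ subset_univ B⟩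
      obtain ⟨x, y, hx, hy, hbase, hycl⟩ := exists_step hBs₁ hBs₂ hB hdep
      have hyY : y ∉ Y := fun h => hy.2 (hYB h)
      have hY₁B : insert y Y ⊆ insert y (B \ {x}) := by
        refine insert_subset_insert ?_
        intro z hz
        refine ⟨hYB hz, ?_⟩
        rintro rfl
        exact hx.2 (hYBs hz)
      have hY₁Bs : insert y Y ⊆ Bs := insert_subset hy.1 hYBs
      have hcirc₁ : ∀ C, M₁.IsCircuit C → C ⊆ insert y (B \ {x}) → Disjoint C (insert y Y) := by
        intro C hC hCsub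
        have hyC : y ∉ C := by
          intro hyC
          have h1 := hC.mem_closure_sdiff_singleton_of_mem hyC
          refine hycl (M₁.closure_subset_closure ?_ h1)
          rintro z ⟨hzC, hzy⟩
          rcases hCsub hzC with rfl | hz
          · exact absurd rfl hzy
          · exact hz.1
        have hCB : C ⊆ B := by
          intro z hz
          rcases hCsub hz with rfl | h
          · exact absurd hz hyC
          · exact h.1
        rw [disjoint_insert_right]
        exact ⟨hyC, hcirc C hC hCB⟩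
      have hcard₁ : c ≤ (insert y Y).ncard + j := by
        rw [ncard_insert_of_notMem hyY (Set.toFinite _)]
        omega
      obtain ⟨B', h1, h2, h3⟩ := ih hbase hY₁B hY₁Bs hcirc₁ hcard₁
      refine ⟨B', h1, h2, ?_⟩
      have := ball_trans (mem_ball_one_of_exchange hx.1 hy.2) h3
      rwa [Nat.add_comm] at this

theorem main [Fintype α] (M₁ M₂ : Matroid α) (hE₁ : M₁.E = univ) (c : ℕ) {Bs : Set α}
    (hBs₁ : M₁.IsBase Bs) (hBs₂ : M₂.IsBase Bs)
    (hc : ∀ S : Set α, M₂.Indep S → S.ncard + c ≤ Bs.ncard → M₁.Indep S) :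
    {B : Set α | M₂.IsBase B}.ncard ≤
      (Fintype.card α ^ 2 + 1) ^ c * {B : Set α | M₁.IsBase B ∧ M₂.IsBase B}.ncard := by
  classical
  have hcover : {B : Set α | M₂.IsBase B} ⊆
      ⋃ B' ∈ (Set.toFinite {B : Set α | M₁.IsBase B ∧ M₂.IsBase B}).toFinset, ball c B' := by
    intro B hB
    have hB : M₂.IsBase B := hB
    obtain ⟨B', h1, h2, h3⟩ := reach hE₁ hBs₁ hBs₂ c hc c hB (empty_subset B) (empty_subset Bs)
      (fun C _ _ => disjoint_empty C) (by simp)
    simp only [Finite.mem_toFinset, mem_iUnion, exists_prop]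
    exact ⟨B', ⟨h1, h2⟩, h3⟩
  calc {B : Set α | M₂.IsBase B}.ncard
      ≤ (⋃ B' ∈ (Set.toFinite {B : Set α | M₁.IsBase B ∧ M₂.IsBase B}).toFinset,
          ball c B').ncard := ncard_le_ncard hcover (Set.toFinite _)
    _ ≤ ∑ B' ∈ (Set.toFinite {B : Set α | M₁.IsBase B ∧ M₂.IsBase B}).toFinset,
          (ball c B').ncard := Finset.set_ncard_biUnion_le _ _
    _ ≤ ∑ _B' ∈ (Set.toFinite {B : Set α | M₁.IsBase B ∧ M₂.IsBase B}).toFinset,
          (Fintype.card α ^ 2 + 1) ^ c := Finset.sum_le_sum (fun B' _ => ball_ncard_le _ _)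
    _ = (Fintype.card α ^ 2 + 1) ^ c * {B : Set α | M₁.IsBase B ∧ M₂.IsBase B}.ncard := by
      rw [Finset.sum_const, smul_eq_mul, ncard_eq_toFinset_card _ (Set.toFinite _), mul_comm]

end Vale.Agent.P317
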